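/-
S0066 (row 47) — package F2 (bottom step), second track (helper73).
`bottom_core` proves the bottom step from the bottom rule taken as a hypothesis.
Blueprint: `notes/s0066_blueprint.md`, §3 F2.
-/
import Crest.Agent.Helper5.S0066.FarDefs

set_option autoImplicit false

namespace Crest.Agent.Helper73.S0066

open Crest.Agent.Helper5.S0066 Line

variable {h : ℕ}

open Classical in
theorem mem_X0 {B : Line h → Line h → Bool} {i i' x : Fin (2 ^ h)} :
    x ∈ X0 B i i' ↔
      GoodRow B i' (leaf x) ∧ GoodCol B i (leaf x) ∧ B (leaf x) (leaf x) = false := by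
  simp [X0]

open Classical in
theorem mem_badRows {B : Line h → Line h → Bool} {i' : Fin (2 ^ h)} {p : Line h} :
    p ∈ badRows B i' ↔ p.isPay = true ∧ ¬ GoodRow B i' p := by
  simp [badRows]

open Classical in
theorem mem_badCols {B : Line h → Line h → Bool} {i : Fin (2 ^ h)} {q : Line h} :
    q ∈ badCols B i ↔ q.isPay = true ∧ ¬ GoodCol B i q := by
  simp [badCols]

theorem mem_diffSet {B : Line h → Line h → Bool} {p : Line h × Line h} :
    p ∈ diffSet B ↔ M p.1 p.2 ≠ B p.1 p.2 := by
  simp [diffSet]

open Classical in
/-- Few indices have a bad row among an injective family of payload lines. -/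
theorem card_not_goodRow_le (B : Line h → Line h → Bool) (i' : Fin (2 ^ h))
    {ι : Type*} [Fintype ι] (f : ι → Line h) (hf : Function.Injective f)
    (hpay : ∀ x, (f x).isPay = true) :
    (Finset.univ.filter fun x => ¬ GoodRow B i' (f x)).card ≤ (badRows B i').card := by
  apply Finset.card_le_card_of_injOn f
  · intro x hx
    have hx' : ¬ GoodRow B i' (f x) := by simpa using hx
    exact Finset.mem_coe.2 (mem_badRows.2 ⟨hpay x, hx'⟩)
  · exact hf.injOn

open Classical in
/-- Few indices have a bad column among an injective family of payload lines. -/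
theorem card_not_goodCol_le (B : Line h → Line h → Bool) (i : Fin (2 ^ h))
    {ι : Type*} [Fintype ι] (f : ι → Line h) (hf : Function.Injective f)
    (hpay : ∀ x, (f x).isPay = true) :
    (Finset.univ.filter fun x => ¬ GoodCol B i (f x)).card ≤ (badCols B i).card := by
  apply Finset.card_le_card_of_injOn f
  · intro x hx
    have hx' : ¬ GoodCol B i (f x) := by simpa using hx
    exact Finset.mem_coe.2 (mem_badCols.2 ⟨hpay x, hx'⟩)
  · exact hf.injOn

theorem Y_injective : Function.Injective (fun u : Fin (2 ^ h) => (Y u : Line h)) := by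
  intro a b hab
  exact Line.Y.inj hab

theorem leaf_injective : Function.Injective (fun x : Fin (2 ^ h) => (leaf x : Line h)) := by
  intro a b hab
  exact Line.leaf.inj hab

open Classical in
/-- For a good leaf whose diagonal cell is kept, at least `N / 2` cells `(Y u, leaf x)` or
`(leaf x, Y u')` are deleted. -/
theorem kept_leaf_heavy (B : Line h → Line h → Bool) (i i' : Fin (2 ^ h))
    (hrule : ∀ u u' x : Fin (2 ^ h), GoodRow B i' (Y u) → GoodCol B i (Y u') →
      GoodRow B i' (leaf x) → GoodCol B i (leaf x) → B (leaf x) (leaf x) = true →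
      B (Y u) (Y u') = false ∨ B (Y u) (leaf x) = false ∨ B (leaf x) (Y u') = false)
    (hE : 16 * (diffSet B).card < 4 ^ h)
    (hbad : 16 * ((badRows B i').card + (badCols B i).card) < 2 ^ h)
    (x : Fin (2 ^ h)) (hx : GoodRow B i' (leaf x)) (hx' : GoodCol B i (leaf x))
    (hxx : B (leaf x) (leaf x) = true) :
    2 ^ h ≤ 2 * ((Finset.univ.filter fun u : Fin (2 ^ h) => B (Y u) (leaf x) = false).card +
      (Finset.univ.filter fun u' : Fin (2 ^ h) => B (leaf x) (Y u') = false).card) := by
  by_contra hcon
  rw [not_le] at hcon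
  set a := (Finset.univ.filter fun u : Fin (2 ^ h) => B (Y u) (leaf x) = false).card with ha
  set b := (Finset.univ.filter fun u' : Fin (2 ^ h) => B (leaf x) (Y u') = false).card with hb
  set U : Finset (Fin (2 ^ h)) :=
    Finset.univ.filter fun u => GoodRow B i' (Y u) ∧ B (Y u) (leaf x) = true with hU
  set U' : Finset (Fin (2 ^ h)) :=
    Finset.univ.filter fun u' => GoodCol B i (Y u') ∧ B (leaf x) (Y u') = true with hU'
  -- counting U
  have hcU : 2 ^ h ≤ U.card + (badRows B i').card + a := by
    have hsub : (Finset.univ : Finset (Fin (2 ^ h))) ⊆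
        U ∪ (Finset.univ.filter fun u => ¬ GoodRow B i' (Y u)) ∪
          (Finset.univ.filter fun u : Fin (2 ^ h) => B (Y u) (leaf x) = false) := by
      intro u _
      by_cases hg : GoodRow B i' (Y u)
      · by_cases hb : B (Y u) (leaf x) = true
        · simp [hU, hg, hb]
        · have : B (Y u) (leaf x) = false := by simpa using hb
          simp [this]
      · simp [hg]
    have h1 := Finset.card_le_card hsub
    have h2 := Finset.card_union_le (U ∪ (Finset.univ.filter fun u => ¬ GoodRow B i' (Y u)))
      (Finset.univ.filter fun u : Fin (2 ^ h) => B (Y u) (leaf x) = false)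
    have h3 := Finset.card_union_le U (Finset.univ.filter fun u => ¬ GoodRow B i' (Y u))
    have h4 := card_not_goodRow_le B i' (fun u : Fin (2 ^ h) => (Y u : Line h)) Y_injective
      (fun _ => rfl)
    simp only [Finset.card_univ, Fintype.card_fin] at h1
    omega
  have hcU' : 2 ^ h ≤ U'.card + (badCols B i).card + b := by
    have hsub : (Finset.univ : Finset (Fin (2 ^ h))) ⊆
        U' ∪ (Finset.univ.filter fun u => ¬ GoodCol B i (Y u)) ∪
          (Finset.univ.filter fun u' : Fin (2 ^ h) => B (leaf x) (Y u') = false) := by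
      intro u _
      by_cases hg : GoodCol B i (Y u)
      · by_cases hb : B (leaf x) (Y u) = true
        · simp [hU', hg, hb]
        · have : B (leaf x) (Y u) = false := by simpa using hb
          simp [this]
      · simp [hg]
    have h1 := Finset.card_le_card hsub
    have h2 := Finset.card_union_le (U' ∪ (Finset.univ.filter fun u => ¬ GoodCol B i (Y u)))
      (Finset.univ.filter fun u' : Fin (2 ^ h) => B (leaf x) (Y u') = false)
    have h3 := Finset.card_union_le U' (Finset.univ.filter fun u => ¬ GoodCol B i (Y u))
    have h4 := card_not_goodCol_le B i (fun u : Fin (2 ^ h) => (Y u : Line h)) Y_injective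
      (fun _ => rfl)
    simp only [Finset.card_univ, Fintype.card_fin] at h1
    omega
  -- the product injects into the difference set
  have hprod : U.card * U'.card ≤ (diffSet B).card := by
    rw [← Finset.card_product]
    apply Finset.card_le_card_of_injOn (fun p : Fin (2 ^ h) × Fin (2 ^ h) =>
      ((Y p.1 : Line h), (Y p.2 : Line h)))
    · rintro ⟨u, u'⟩ hp
      have hp' := Finset.mem_product.1 (Finset.mem_coe.1 hp)
      have hu : GoodRow B i' (Y u) ∧ B (Y u) (leaf x) = true := by
        have := hp'.1
        simpa [hU] using this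
      have hu' : GoodCol B i (Y u') ∧ B (leaf x) (Y u') = true := by
        have := hp'.2
        simpa [hU'] using this
      have hr := hrule u u' x hu.1 hu'.1 hx hx' hxx
      have hYY : B (Y u) (Y u') = false := by
        rcases hr with hr | hr | hr
        · exact hr
        · rw [hu.2] at hr; exact absurd hr (by simp)
        · rw [hu'.2] at hr; exact absurd hr (by simp)
      apply Finset.mem_coe.2
      rw [mem_diffSet]
      show M (Y u) (Y u') ≠ B (Y u) (Y u')
      rw [hYY]
      simp [M]
    · rintro ⟨u, u'⟩ _ ⟨v, v'⟩ _ hpq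
      simp only [Prod.mk.injEq] at hpq
      rw [Line.Y.inj hpq.1, Line.Y.inj hpq.2]
  -- arithmetic
  have h4 : (4 : ℕ) ^ h = 2 ^ h * 2 ^ h := by rw [← mul_pow]; norm_num
  have hU7 : 7 * 2 ^ h < 16 * U.card := by omega
  have hU7' : 7 * 2 ^ h < 16 * U'.card := by omega
  have hmul := Nat.mul_le_mul hU7.le hU7'.le
  nlinarith [hmul, hprod, hE, h4]

open Classical in
/-- **F2** (bottom step) from the bottom rule. -/
theorem bottom_core (B : Line h → Line h → Bool) (i i' : Fin (2 ^ h))
    (hrule : ∀ u u' x : Fin (2 ^ h), GoodRow B i' (Y u) → GoodCol B i (Y u') →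
      GoodRow B i' (leaf x) → GoodCol B i (leaf x) → B (leaf x) (leaf x) = true →
      B (Y u) (Y u') = false ∨ B (Y u) (leaf x) = false ∨ B (leaf x) (Y u') = false)
    (hE : 16 * (diffSet B).card < 4 ^ h)
    (hbad : 16 * ((badRows B i').card + (badCols B i).card) < 2 ^ h) :
    13 * 2 ^ h < 16 * (X0 B i i').card := by
  -- the kept good leaves
  set K : Finset (Fin (2 ^ h)) := Finset.univ.filter fun x =>
    GoodRow B i' (leaf x) ∧ GoodCol B i (leaf x) ∧ B (leaf x) (leaf x) = true with hK
  -- every leaf is in X0, bad, or kept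
  have hcover : 2 ^ h ≤ (X0 B i i').card + (badRows B i').card + (badCols B i).card + K.card := by
    have hsub : (Finset.univ : Finset (Fin (2 ^ h))) ⊆
        X0 B i i' ∪ (Finset.univ.filter fun x => ¬ GoodRow B i' (leaf x)) ∪
          (Finset.univ.filter fun x => ¬ GoodCol B i (leaf x)) ∪ K := by
      intro x _
      by_cases hg : GoodRow B i' (leaf x)
      · by_cases hg' : GoodCol B i (leaf x)
        · by_cases hb : B (leaf x) (leaf x) = true
          · have : x ∈ K := by simp [hK, hg, hg', hb]
            simp [this]
          · have hb' : B (leaf x) (leaf x) = false := by simpa using hb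
            have : x ∈ X0 B i i' := mem_X0.2 ⟨hg, hg', hb'⟩
            simp [this]
        · simp [hg']
      · simp [hg]
    have h1 := Finset.card_le_card hsub
    have h2 := Finset.card_union_le (X0 B i i' ∪ (Finset.univ.filter fun x => ¬ GoodRow B i' (leaf x)) ∪
          (Finset.univ.filter fun x => ¬ GoodCol B i (leaf x))) K
    have h3 := Finset.card_union_le (X0 B i i' ∪ (Finset.univ.filter fun x => ¬ GoodRow B i' (leaf x)))
          (Finset.univ.filter fun x => ¬ GoodCol B i (leaf x))
    have h4 := Finset.card_union_le (X0 B i i') (Finset.univ.filter fun x => ¬ GoodRow B i' (leaf x))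
    have h5 := card_not_goodRow_le B i' (fun x : Fin (2 ^ h) => (leaf x : Line h)) leaf_injective
      (fun _ => rfl)
    have h6 := card_not_goodCol_le B i (fun x : Fin (2 ^ h) => (leaf x : Line h)) leaf_injective
      (fun _ => rfl)
    simp only [Finset.card_univ, Fintype.card_fin] at h1
    omega
  -- the deleted cells attached to a kept leaf
  let D : Fin (2 ^ h) → Finset (Line h × Line h) := fun x =>
    ((Finset.univ.filter fun u : Fin (2 ^ h) => B (Y u) (leaf x) = false).image
        fun u => ((Y u : Line h), (leaf x : Line h))) ∪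
      ((Finset.univ.filter fun u' : Fin (2 ^ h) => B (leaf x) (Y u') = false).image
        fun u' => ((leaf x : Line h), (Y u' : Line h)))
  have hDcard : ∀ x, (D x).card =
      (Finset.univ.filter fun u : Fin (2 ^ h) => B (Y u) (leaf x) = false).card +
      (Finset.univ.filter fun u' : Fin (2 ^ h) => B (leaf x) (Y u') = false).card := by
    intro x
    have hdisj : Disjoint
        ((Finset.univ.filter fun u : Fin (2 ^ h) => B (Y u) (leaf x) = false).image
          fun u => ((Y u : Line h), (leaf x : Line h)))
        ((Finset.univ.filter fun u' : Fin (2 ^ h) => B (leaf x) (Y u') = false).image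
          fun u' => ((leaf x : Line h), (Y u' : Line h))) := by
      rw [Finset.disjoint_left]
      intro e he1 he2
      obtain ⟨u, _, rfl⟩ := Finset.mem_image.1 he1
      obtain ⟨u', _, he⟩ := Finset.mem_image.1 he2
      simp only [Prod.mk.injEq] at he
      exact absurd he.1 (by simp)
    show Finset.card (Finset.image _ _ ∪ Finset.image _ _) = _
    rw [Finset.card_union_of_disjoint hdisj, Finset.card_image_of_injective,
      Finset.card_image_of_injective]
    · intro u v huv
      simp only [Prod.mk.injEq] at huv
      exact Line.Y.inj huv.2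
    · intro u v huv
      simp only [Prod.mk.injEq] at huv
      exact Line.Y.inj huv.1
  have hDsub : ∀ x, D x ⊆ diffSet B := by
    intro x e he
    rcases Finset.mem_union.1 he with he | he
    · obtain ⟨u, hu, rfl⟩ := Finset.mem_image.1 he
      have hu' : B (Y u) (leaf x) = false := by simpa using hu
      rw [mem_diffSet]
      show M (Y u) (leaf x) ≠ B (Y u) (leaf x)
      rw [hu']
      simp [M]
    · obtain ⟨u, hu, rfl⟩ := Finset.mem_image.1 he
      have hu' : B (leaf x) (Y u) = false := by simpa using hu
      rw [mem_diffSet]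
      show M (leaf x) (Y u) ≠ B (leaf x) (Y u)
      rw [hu']
      simp [M]
  have hDdisj : ∀ x ∈ K, ∀ y ∈ K, x ≠ y → Disjoint (D x) (D y) := by
    intro x _ y _ hxy
    rw [Finset.disjoint_left]
    intro e he1 he2
    rcases Finset.mem_union.1 he1 with he1 | he1 <;> rcases Finset.mem_union.1 he2 with he2 | he2
    · obtain ⟨u, _, rfl⟩ := Finset.mem_image.1 he1
      obtain ⟨v, _, he⟩ := Finset.mem_image.1 he2
      simp only [Prod.mk.injEq] at he
      exact hxy (Line.leaf.inj he.2).symm
    · obtain ⟨u, _, rfl⟩ := Finset.mem_image.1 he1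
      obtain ⟨v, _, he⟩ := Finset.mem_image.1 he2
      simp only [Prod.mk.injEq] at he
      exact absurd he.1 (by simp)
    · obtain ⟨u, _, rfl⟩ := Finset.mem_image.1 he1
      obtain ⟨v, _, he⟩ := Finset.mem_image.1 he2
      simp only [Prod.mk.injEq] at he
      exact absurd he.1 (by simp)
    · obtain ⟨u, _, rfl⟩ := Finset.mem_image.1 he1
      obtain ⟨v, _, he⟩ := Finset.mem_image.1 he2
      simp only [Prod.mk.injEq] at he
      exact hxy (Line.leaf.inj he.1).symm
  have hsum : ∑ x ∈ K, (D x).card ≤ (diffSet B).card := by
    rw [← Finset.card_biUnion hDdisj]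
    apply Finset.card_le_card
    intro e he
    obtain ⟨x, _, hex⟩ := Finset.mem_biUnion.1 he
    exact hDsub x hex
  have hKN : K.card * 2 ^ h ≤ 2 * (diffSet B).card := by
    have hle : ∑ _x ∈ K, 2 ^ h ≤ ∑ x ∈ K, 2 * (D x).card := by
      apply Finset.sum_le_sum
      intro x hxK
      have hxK' : GoodRow B i' (leaf x) ∧ GoodCol B i (leaf x) ∧ B (leaf x) (leaf x) = true := by
        simpa [hK] using hxK
      rw [hDcard x]
      exact kept_leaf_heavy B i i' hrule hE hbad x hxK'.1 hxK'.2.1 hxK'.2.2
    rw [Finset.sum_const, smul_eq_mul, ← Finset.mul_sum] at hle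
    have := Nat.mul_le_mul_left 2 hsum
    omega
  have h4 : (4 : ℕ) ^ h = 2 ^ h * 2 ^ h := by rw [← mul_pow]; norm_num
  have hpos : 0 < 2 ^ h := by positivity
  have hK8 : 8 * K.card < 2 ^ h := by
    by_contra hc
    rw [not_lt] at hc
    have := Nat.mul_le_mul_right (2 ^ h) hc
    nlinarith [this, hKN, hE, h4]
  omega

end Crest.Agent.Helper73.S0066
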