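/-
S0066 (row 47) — package F2 (bottom step), second track (helper73).
`bottom` is the interface statement of package F2, obtained from `bottom_core` and the bottom
rule of package F0 (helper60).
-/
import Crest.Agent.Helper73.S0066.F2Core
import Crest.Agent.Helper60.S0066.F0Core

set_option autoImplicit false

namespace Crest.Agent.Helper73.S0066

open Crest.Agent.Helper5.S0066 Line

variable {h : ℕ}

/-- **F2.** Bottom step: more than `13/16` of the leaves are good with a deleted diagonal cell. -/
theorem bottom (B : Line h → Line h → Bool) (hfree : HFree B)
    (hE : 16 * (diffSet B).card < 4 ^ h) (i i' : Fin (2 ^ h)) (hmm : MMclean B i i')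
    (hbad : 16 * ((badRows B i').card + (badCols B i).card) < 2 ^ h) :
    13 * 2 ^ h < 16 * (X0 B i i').card :=
  bottom_core B i i'
    (fun _ _ _ hu hu' hx hx' hxx =>
      Crest.Agent.Helper60.S0066.rule_bot B hfree i i' hmm hu hu' hx hx' hxx) hE hbad

end Crest.Agent.Helper73.S0066
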